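import Vale.Agent.P021.Assembly

namespace Vale.Agent.Results.P021.PiUpperBound

/-- the irrationality exponent of a real number, the supremum being taken in `[-∞, ∞]` -/
noncomputable def irrExponent (x : ℝ) : EReal :=
  sSup {e : EReal | ∃ ν : ℝ, 0 < ν ∧ e = (ν : EReal) ∧
    {r : ℤ × ℤ | IsCoprime r.1 r.2 ∧ 2 ≤ r.2 ∧ 0 < |x - (r.1 : ℝ) / (r.2 : ℝ)| ∧
      |x - (r.1 : ℝ) / (r.2 : ℝ)| < (r.2 : ℝ) ^ (-ν)}.Infinite}

theorem result : irrExponent Real.pi ≤ ((7.1019 : ℝ) : EReal) := by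
  apply sSup_le
  rintro e ⟨ν, _, rfl, hinf⟩
  rw [EReal.coe_le_coe_iff]
  by_contra hlt
  push Not at hlt
  refine hinf ((Vale.Agent.P021.pi_finite ν hlt).subset ?_)
  rintro ⟨p, q⟩ ⟨_, h2, _, h3⟩
  exact ⟨h2, h3⟩

end Vale.Agent.Results.P021.PiUpperBound
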